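import Mathlib

/-! The ten dimensional algebra `C` of part B and its contractions. -/

namespace Vale.Agent.P195.B

/-- coordinates with respect to the basis e,x,y,w,u,u',v,v',f,n -/
@[ext]
structure C (k : Type) (q : k) : Type where
  e : k
  x : k
  y : k
  w : k
  u : k
  U : k
  v : k
  V : k
  f : k
  n : k

namespace C

variable {k : Type} [Field k] {q : k}

/-- coordinates as a tuple -/
def toProd (a : C k q) : k × k × k × k × k × k × k × k × k × k :=
  (a.e, a.x, a.y, a.w, a.u, a.U, a.v, a.V, a.f, a.n)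

omit [Field k] in
lemma toProd_injective : Function.Injective (toProd : C k q → _) := by
  intro a b h
  simp only [toProd, Prod.mk.injEq] at h
  obtain ⟨h0, h1, h2, h3, h4, h5, h6, h7, h8, h9⟩ := h
  exact C.ext h0 h1 h2 h3 h4 h5 h6 h7 h8 h9

instance : Zero (C k q) := ⟨⟨0, 0, 0, 0, 0, 0, 0, 0, 0, 0⟩⟩
instance : One (C k q) := ⟨⟨1, 0, 0, 0, 0, 0, 0, 0, 1, 0⟩⟩
instance : Add (C k q) := ⟨fun a b => ⟨a.e + b.e, a.x + b.x, a.y + b.y, a.w + b.w, a.u + b.u,
  a.U + b.U, a.v + b.v, a.V + b.V, a.f + b.f, a.n + b.n⟩⟩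
instance : Neg (C k q) := ⟨fun a => ⟨-a.e, -a.x, -a.y, -a.w, -a.u, -a.U, -a.v, -a.V, -a.f, -a.n⟩⟩
instance : Sub (C k q) := ⟨fun a b => ⟨a.e - b.e, a.x - b.x, a.y - b.y, a.w - b.w, a.u - b.u,
  a.U - b.U, a.v - b.v, a.V - b.V, a.f - b.f, a.n - b.n⟩⟩
instance {R : Type} [SMul R k] : SMul R (C k q) := ⟨fun c a => ⟨c • a.e, c • a.x, c • a.y, c • a.w,
  c • a.u, c • a.U, c • a.v, c • a.V, c • a.f, c • a.n⟩⟩
instance : Mul (C k q) := ⟨fun a b =>
  ⟨a.e * b.e,
   a.e * b.x + a.x * b.e + a.u * b.v,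
   a.e * b.y + a.y * b.e + q * a.u * b.v,
   a.e * b.w + a.w * b.e + q * a.x * b.y + a.y * b.x + q * a.u * b.V + a.U * b.v,
   a.e * b.u + a.u * b.f,
   a.e * b.U + a.U * b.f + q ^ 2 * a.x * b.u + a.y * b.u + q * a.u * b.n,
   a.f * b.v + a.v * b.e,
   a.f * b.V + a.V * b.e + a.v * b.x + a.v * b.y + a.n * b.v,
   a.f * b.f,
   a.f * b.n + a.n * b.f + (1 + q) * a.v * b.u⟩⟩

instance : AddCommGroup (C k q) :=
  toProd_injective.addCommGroup _ rfl (fun _ _ => rfl) (fun _ => rfl) (fun _ _ => rfl)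
    (fun _ _ => rfl) (fun _ _ => rfl)

@[simp] lemma zero_e : (0 : C k q).e = 0 := rfl
@[simp] lemma one_e : (1 : C k q).e = 1 := rfl
@[simp] lemma add_e (a b : C k q) : (a + b).e = a.e + b.e := rfl
@[simp] lemma smul_e (c : k) (a : C k q) : (c • a).e = c * a.e := rfl
@[simp] lemma mul_e (a b : C k q) : (a * b).e =
    a.e * b.e := rfl
@[simp] lemma zero_x : (0 : C k q).x = 0 := rfl
@[simp] lemma one_x : (1 : C k q).x = 0 := rfl
@[simp] lemma add_x (a b : C k q) : (a + b).x = a.x + b.x := rfl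
@[simp] lemma smul_x (c : k) (a : C k q) : (c • a).x = c * a.x := rfl
@[simp] lemma mul_x (a b : C k q) : (a * b).x =
    a.e * b.x + a.x * b.e + a.u * b.v := rfl
@[simp] lemma zero_y : (0 : C k q).y = 0 := rfl
@[simp] lemma one_y : (1 : C k q).y = 0 := rfl
@[simp] lemma add_y (a b : C k q) : (a + b).y = a.y + b.y := rfl
@[simp] lemma smul_y (c : k) (a : C k q) : (c • a).y = c * a.y := rfl
@[simp] lemma mul_y (a b : C k q) : (a * b).y =
    a.e * b.y + a.y * b.e + q * a.u * b.v := rfl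
@[simp] lemma zero_w : (0 : C k q).w = 0 := rfl
@[simp] lemma one_w : (1 : C k q).w = 0 := rfl
@[simp] lemma add_w (a b : C k q) : (a + b).w = a.w + b.w := rfl
@[simp] lemma smul_w (c : k) (a : C k q) : (c • a).w = c * a.w := rfl
@[simp] lemma mul_w (a b : C k q) : (a * b).w =
    a.e * b.w + a.w * b.e + q * a.x * b.y + a.y * b.x + q * a.u * b.V + a.U * b.v := rfl
@[simp] lemma zero_u : (0 : C k q).u = 0 := rfl
@[simp] lemma one_u : (1 : C k q).u = 0 := rfl
@[simp] lemma add_u (a b : C k q) : (a + b).u = a.u + b.u := rfl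
@[simp] lemma smul_u (c : k) (a : C k q) : (c • a).u = c * a.u := rfl
@[simp] lemma mul_u (a b : C k q) : (a * b).u =
    a.e * b.u + a.u * b.f := rfl
@[simp] lemma zero_u' : (0 : C k q).U = 0 := rfl
@[simp] lemma one_u' : (1 : C k q).U = 0 := rfl
@[simp] lemma add_u' (a b : C k q) : (a + b).U = a.U + b.U := rfl
@[simp] lemma smul_u' (c : k) (a : C k q) : (c • a).U = c * a.U := rfl
@[simp] lemma mul_u' (a b : C k q) : (a * b).U =
    a.e * b.U + a.U * b.f + q ^ 2 * a.x * b.u + a.y * b.u + q * a.u * b.n := rfl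
@[simp] lemma zero_v : (0 : C k q).v = 0 := rfl
@[simp] lemma one_v : (1 : C k q).v = 0 := rfl
@[simp] lemma add_v (a b : C k q) : (a + b).v = a.v + b.v := rfl
@[simp] lemma smul_v (c : k) (a : C k q) : (c • a).v = c * a.v := rfl
@[simp] lemma mul_v (a b : C k q) : (a * b).v =
    a.f * b.v + a.v * b.e := rfl
@[simp] lemma zero_v' : (0 : C k q).V = 0 := rfl
@[simp] lemma one_v' : (1 : C k q).V = 0 := rfl
@[simp] lemma add_v' (a b : C k q) : (a + b).V = a.V + b.V := rfl
@[simp] lemma smul_v' (c : k) (a : C k q) : (c • a).V = c * a.V := rfl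
@[simp] lemma mul_v' (a b : C k q) : (a * b).V =
    a.f * b.V + a.V * b.e + a.v * b.x + a.v * b.y + a.n * b.v := rfl
@[simp] lemma zero_f : (0 : C k q).f = 0 := rfl
@[simp] lemma one_f : (1 : C k q).f = 1 := rfl
@[simp] lemma add_f (a b : C k q) : (a + b).f = a.f + b.f := rfl
@[simp] lemma smul_f (c : k) (a : C k q) : (c • a).f = c * a.f := rfl
@[simp] lemma mul_f (a b : C k q) : (a * b).f =
    a.f * b.f := rfl
@[simp] lemma zero_n : (0 : C k q).n = 0 := rfl
@[simp] lemma one_n : (1 : C k q).n = 0 := rfl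
@[simp] lemma add_n (a b : C k q) : (a + b).n = a.n + b.n := rfl
@[simp] lemma smul_n (c : k) (a : C k q) : (c • a).n = c * a.n := rfl
@[simp] lemma mul_n (a b : C k q) : (a * b).n =
    a.f * b.n + a.n * b.f + (1 + q) * a.v * b.u := rfl

instance : Module k (C k q) :=
  toProd_injective.module k ⟨⟨toProd, rfl⟩, fun _ _ => rfl⟩ (fun _ _ => rfl)

instance : Ring (C k q) where
  __ := (inferInstance : AddCommGroup (C k q))
  left_distrib a b c := by ext <;> simp <;> ring
  right_distrib a b c := by ext <;> simp <;> ring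
  zero_mul a := by ext <;> simp
  mul_zero a := by ext <;> simp
  mul_assoc a b c := by ext <;> simp <;> ring
  one_mul a := by ext <;> simp
  mul_one a := by ext <;> simp

instance : Algebra k (C k q) :=
  Algebra.ofModule (fun r a b => by ext <;> simp <;> ring) (fun r a b => by ext <;> simp <;> ring)

/-- coordinates as a function -/
def equivFun : C k q ≃ₗ[k] (Fin 10 → k) where
  toFun a := ![a.e, a.x, a.y, a.w, a.u, a.U, a.v, a.V, a.f, a.n]
  invFun t := ⟨t 0, t 1, t 2, t 3, t 4, t 5, t 6, t 7, t 8, t 9⟩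
  map_add' a b := by ext i; fin_cases i <;> rfl
  map_smul' c a := by ext i; fin_cases i <;> rfl
  left_inv a := rfl
  right_inv t := by ext i; fin_cases i <;> rfl

lemma equivFun_apply (a : C k q) :
    equivFun a = ![a.e, a.x, a.y, a.w, a.u, a.U, a.v, a.V, a.f, a.n] := rfl

lemma equivFun_symm_apply (t : Fin 10 → k) :
    (equivFun (q := q)).symm t = ⟨t 0, t 1, t 2, t 3, t 4, t 5, t 6, t 7, t 8, t 9⟩ := rfl

instance : FiniteDimensional k (C k q) := Module.Finite.equiv (equivFun (q := q)).symm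

lemma trace_mulRight [CharP k 2] (a : C k q) :
    LinearMap.trace k (C k q) (LinearMap.mulRight k a) = 0 := by
  have h2 : (2 : k) = 0 := CharTwo.two_eq_zero
  rw [LinearMap.trace_eq_matrix_trace k (Module.Basis.ofEquivFun (equivFun (q := q)))]
  simp only [Matrix.trace, Matrix.diag, LinearMap.toMatrix_apply, Module.Basis.coe_ofEquivFun,
    Module.Basis.ofEquivFun_repr_apply, Fin.sum_univ_succ, Fin.sum_univ_zero]
  simp [equivFun_apply, equivFun_symm_apply]
  linear_combination (3 * a.e + 2 * a.f) * h2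

end C

open C

variable {k : Type} [Field k] (q : k)

/-- the idempotents -/
def eps (a : ℤ) : C k q :=
  if a < 0 then 0 else if a = 0 then ⟨0, 0, 0, 0, 0, 0, 0, 0, 1, 0⟩
  else ⟨1, 0, 0, 0, 0, 0, 0, 0, 0, 0⟩

/-- the differentials -/
def lam (a : ℤ) : C k q :=
  if a ≤ 0 then 0 else if a = 1 then ⟨0, 0, 0, 0, 1, 0, 0, 0, 0, 0⟩
  else ⟨0, 1, q ^ a, 0, 0, 0, 0, 0, 0, 0⟩

/-- contraction of the left complex -/
def hl (a : ℤ) : C k q →ₗ[k] C k q where
  toFun t := if a < 0 then 0 else if a = 0 then ⟨t.u, 0, t.U, 0, 0, 0, (1 + q)⁻¹ * t.n, 0, 0, 0⟩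
    else ⟨t.x, 0, t.w, 0, 0, 0, (1 + q ^ (a + 1))⁻¹ * t.V, 0, 0, 0⟩
  map_add' s t := by split_ifs <;> ext <;> simp <;> ring
  map_smul' c t := by split_ifs <;> ext <;> simp <;> ring

/-- homology of the left complex -/
def pl (a : ℤ) : C k q →ₗ[k] C k q where
  toFun t := if a = 0 then ⟨0, 0, 0, 0, 0, 0, 0, 0, t.f, 0⟩ else 0
  map_add' s t := by split_ifs <;> ext <;> simp
  map_smul' c t := by split_ifs <;> ext <;> simp

/-- contraction of the dual complex -/
def hr (a : ℤ) : C k q →ₗ[k] C k q where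
  toFun t := if a ≤ 0 then 0 else if a = 1 then
      ⟨0, 0, 0, 0, 0, 0, t.x, q⁻¹ * t.w, t.u, q⁻¹ * t.U⟩
    else ⟨t.x, 0, q⁻¹ * t.w, 0, (q ^ 2 + q ^ a)⁻¹ * t.U, 0, 0, 0, 0, 0⟩
  map_add' s t := by split_ifs <;> ext <;> simp <;> ring
  map_smul' c t := by split_ifs <;> ext <;> simp <;> ring

/-- homology of the dual complex -/
def pr' (a : ℤ) : C k q →ₗ[k] C k q where
  toFun t := if a = 2 then ⟨0, 0, 0, 0, 0, t.U, 0, 0, 0, 0⟩ else 0
  map_add' s t := by split_ifs <;> ext <;> simp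
  map_smul' c t := by split_ifs <;> ext <;> simp

lemma eps_neg {a : ℤ} (h : a < 0) : eps q a = 0 := by simp [eps, h]
lemma eps_zero : eps q 0 = ⟨0, 0, 0, 0, 0, 0, 0, 0, 1, 0⟩ := by simp [eps]
lemma eps_pos {a : ℤ} (h : 0 < a) : eps q a = ⟨1, 0, 0, 0, 0, 0, 0, 0, 0, 0⟩ := by
  simp [eps, h.ne', not_lt.2 h.le]
lemma lam_nonpos {a : ℤ} (h : a ≤ 0) : lam q a = 0 := by simp [lam, h]
lemma lam_one : lam q 1 = ⟨0, 0, 0, 0, 1, 0, 0, 0, 0, 0⟩ := by simp [lam]
lemma lam_big {a : ℤ} (h : 1 < a) : lam q a = ⟨0, 1, q ^ a, 0, 0, 0, 0, 0, 0, 0⟩ := by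
  simp [lam, h.ne', show ¬ a ≤ 0 by omega]
lemma hl_neg {a : ℤ} (h : a < 0) (t : C k q) : hl q a t = 0 := by simp [hl, h]
lemma hl_zero (t : C k q) : hl q 0 t = ⟨t.u, 0, t.U, 0, 0, 0, (1 + q)⁻¹ * t.n, 0, 0, 0⟩ := by
  simp [hl]
lemma hl_pos {a : ℤ} (h : 0 < a) (t : C k q) :
    hl q a t = ⟨t.x, 0, t.w, 0, 0, 0, (1 + q ^ (a + 1))⁻¹ * t.V, 0, 0, 0⟩ := by
  simp [hl, h.ne', not_lt.2 h.le]
lemma hr_nonpos {a : ℤ} (h : a ≤ 0) (t : C k q) : hr q a t = 0 := by simp [hr, h]
lemma hr_one (t : C k q) : hr q 1 t = ⟨0, 0, 0, 0, 0, 0, t.x, q⁻¹ * t.w, t.u, q⁻¹ * t.U⟩ := by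
  simp [hr]
lemma hr_big {a : ℤ} (h : 1 < a) (t : C k q) :
    hr q a t = ⟨t.x, 0, q⁻¹ * t.w, 0, (q ^ 2 + q ^ a)⁻¹ * t.U, 0, 0, 0, 0, 0⟩ := by
  simp [hr, h.ne', show ¬ a ≤ 0 by omega]
lemma pl_zero (t : C k q) : pl q 0 t = ⟨0, 0, 0, 0, 0, 0, 0, 0, t.f, 0⟩ := by simp [pl]
lemma pl_ne {a : ℤ} (h : a ≠ 0) : pl q a = 0 := by ext1 t; simp [pl, h]
lemma pr'_two (t : C k q) : pr' q 2 t = ⟨0, 0, 0, 0, 0, t.U, 0, 0, 0, 0⟩ := by simp [pr']
lemma pr'_ne {a : ℤ} (h : a ≠ 2) : pr' q a = 0 := by ext1 t; simp [pr', h]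

lemma eps_mul_eps (a : ℤ) : eps q a * eps q a = eps q a := by
  unfold eps; split_ifs <;> ext <;> simp

lemma eps_mul_lam (a : ℤ) : eps q a * lam q a = lam q a := by
  rcases le_or_gt a 0 with h | h
  · rw [lam_nonpos q h, mul_zero]
  · rw [eps_pos q h]; unfold lam; split_ifs <;> ext <;> simp

lemma lam_mul_eps (a : ℤ) : lam q (a + 1) * eps q a = lam q (a + 1) := by
  rcases lt_trichotomy a 0 with h | rfl | h
  · rw [lam_nonpos q (by omega), zero_mul]
  · rw [zero_add, lam_one, eps_zero]; ext <;> simp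
  · rw [lam_big q (by omega), eps_pos q h]; ext <;> simp

lemma eps_mul_f {a : ℤ} (h : a ≠ 0) : eps q a * eps q 0 = 0 := by
  rcases lt_or_gt_of_ne h with h | h
  · rw [eps_neg q h, zero_mul]
  · rw [eps_pos q h, eps_zero]; ext <;> simp

lemma pr'_mul_eps {a : ℤ} (h : a ≠ 0) (t : C k q) : pr' q 2 (t * eps q a) = 0 := by
  rcases lt_or_gt_of_ne h with h | h
  · rw [eps_neg q h, mul_zero, map_zero]
  · rw [eps_pos q h, pr'_two]; ext <;> simp

lemma hl_level (a : ℤ) (t : C k q) : hl q a t * eps q (a + 1) = hl q a t := by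
  rcases lt_trichotomy a 0 with h | rfl | h
  · rw [hl_neg q h, zero_mul]
  · rw [hl_zero, eps_pos q (by omega)]; ext <;> simp
  · rw [hl_pos q h, eps_pos q (by omega)]; ext <;> simp

lemma pl_level (a : ℤ) (t : C k q) : pl q a t * eps q a = pl q a t := by
  by_cases h : a = 0
  · subst h; rw [pl_zero, eps_zero]; ext <;> simp
  · rw [pl_ne q h]; simp

lemma hr_level (a : ℤ) (t : C k q) : eps q a * hr q (a + 1) t = hr q (a + 1) t := by
  rcases lt_trichotomy a 0 with h | rfl | h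
  · rw [hr_nonpos q (by omega), mul_zero]
  · rw [zero_add, hr_one, eps_zero]; ext <;> simp
  · rw [hr_big q (by omega), eps_pos q h]; ext <;> simp

lemma pr'_level (a : ℤ) (t : C k q) : eps q a * pr' q a t = pr' q a t := by
  by_cases h : a = 2
  · subst h; rw [pr'_two, eps_pos q (by omega)]; ext <;> simp
  · rw [pr'_ne q h]; simp

lemma pl_lam (a : ℤ) (t : C k q) : pl q a (t * lam q (a + 1)) = 0 := by
  by_cases h : a = 0
  · subst h; rw [pl_zero, zero_add, lam_one]; ext <;> simp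
  · rw [pl_ne q h]; simp

lemma lam_pl (a : ℤ) (t : C k q) : pl q a t * lam q a = 0 := by
  by_cases h : a = 0
  · subst h; rw [lam_nonpos q le_rfl, mul_zero]
  · rw [pl_ne q h]; simp

lemma lam_pr' (a : ℤ) (t : C k q) : lam q (a + 1) * pr' q a t = 0 := by
  by_cases h : a = 2
  · subst h; rw [pr'_two, lam_big q (by omega)]; ext <;> simp
  · rw [pr'_ne q h]; simp

variable [CharP k 2]

lemma pr'_lam (a : ℤ) (t : C k q) : pr' q a (lam q a * t) = 0 := by
  have h2 : (2 : k) = 0 := CharTwo.two_eq_zero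
  by_cases h : a = 2
  · subst h
    rw [pr'_two, lam_big q (by omega)]
    ext <;> simp
    linear_combination (q ^ 2 * t.u) * h2
  · rw [pr'_ne q h]; simp

lemma lam_mul_lam (hq0 : q ≠ 0) (a : ℤ) : lam q (a + 1) * lam q a = 0 := by
  have h2 : (2 : k) = 0 := CharTwo.two_eq_zero
  rcases le_or_gt a 0 with h | h
  · rw [lam_nonpos q h, mul_zero]
  · rw [lam_big q (by omega : 1 < a + 1)]
    by_cases h1 : a = 1
    · subst h1
      rw [lam_one]
      ext <;> simp
      linear_combination (q ^ 2) * h2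
    · rw [lam_big q (by omega)]
      ext <;> simp
      rw [zpow_add_one₀ hq0]
      linear_combination (q * q ^ a) * h2

lemma left_contr (hq0 : q ≠ 0) (hq : ∀ n : ℕ, 1 + q ^ (n + 1) ≠ 0) (a : ℤ) (t : C k q) :
    hl q a t * lam q (a + 1) + hl q (a - 1) (t * lam q a) = t * eps q a + pl q a t := by
  have h2 : (2 : k) = 0 := CharTwo.two_eq_zero
  have hq' : ∀ b : ℤ, 0 < b → 1 + q ^ b ≠ 0 := by
    intro b hb
    have := hq (b - 1).toNat
    rwa [← zpow_natCast, show (((b - 1).toNat + 1 : ℕ) : ℤ) = b by omega] at this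
  rcases lt_trichotomy a 0 with h | rfl | h
  · rw [hl_neg q h, hl_neg q (by omega), eps_neg q h, pl_ne q h.ne]; simp
  · have h1 : 1 + q ≠ 0 := by simpa using hq 0
    rw [hl_zero, hl_neg q (by omega), eps_zero, pl_zero, zero_add, lam_one]
    ext <;> simp
    · linear_combination (-t.f) * h2
    · field_simp
  · rw [hl_pos q h, eps_pos q h, pl_ne q h.ne', lam_big q (by omega : 1 < a + 1)]
    have h3 := hq' (a + 1) (by omega)
    by_cases h1 : a = 1
    · subst h1
      have h1 : 1 + q ≠ 0 := by simpa using hq 0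
      rw [lam_one, sub_self, hl_zero]
      rw [show (1 : ℤ) + 1 = 2 by norm_num, zpow_ofNat] at h3 ⊢
      ext <;> simp
      · linear_combination (q ^ 2 * t.x) * h2
      · field_simp
      · field_simp
    · rw [lam_big q (by omega), hl_pos q (by omega), sub_add_cancel]
      have h4 := hq' a h
      ext <;> simp
      · rw [zpow_add_one₀ hq0]
        linear_combination (q * q ^ a * t.x) * h2
      · field_simp
      · field_simp

lemma right_contr (hq0 : q ≠ 0) (hq : ∀ n : ℕ, 1 + q ^ (n + 1) ≠ 0) (a : ℤ) (t : C k q) :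
    lam q a * hr q a t + hr q (a + 1) (lam q (a + 1) * t) = eps q a * t + pr' q a t := by
  have h2 : (2 : k) = 0 := CharTwo.two_eq_zero
  have hq' : ∀ b : ℤ, 2 < b → q ^ 2 + q ^ b ≠ 0 := by
    intro b hb
    have := hq (b - 3).toNat
    rw [← zpow_natCast, show (((b - 3).toNat + 1 : ℕ) : ℤ) = b - 2 by omega] at this
    have e : q ^ 2 + q ^ b = q ^ 2 * (1 + q ^ (b - 2)) := by
      rw [mul_add, mul_one, ← zpow_natCast q 2, ← zpow_add₀ hq0]
      congr 2
      omega
    rw [e]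
    exact mul_ne_zero (pow_ne_zero _ hq0) this
  rcases lt_trichotomy a 0 with h | rfl | h
  · rw [lam_nonpos q h.le, hr_nonpos q (by omega : a + 1 ≤ 0), eps_neg q h, pr'_ne q (by omega)]
    simp
  · rw [lam_nonpos q le_rfl, zero_add, hr_one, lam_one, eps_zero, pr'_ne q (by omega)]
    ext <;> simp
    · field_simp
    · field_simp
  · rw [eps_pos q h, hr_big q (by omega : 1 < a + 1), lam_big q (by omega : 1 < a + 1)]
    by_cases h1 : a = 1
    · subst h1
      rw [lam_one, hr_one, pr'_ne q (by omega)]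
      rw [show (1 : ℤ) + 1 = 2 by norm_num, zpow_ofNat]
      have h3 : q ^ 2 + q ^ 2 = 0 := by linear_combination (q ^ 2) * h2
      rw [h3]
      ext <;> simp
      · field_simp
        linear_combination (q * t.x) * h2
      · field_simp
      · field_simp
    · rw [lam_big q (by omega), hr_big q (by omega)]
      have h4 := hq' (a + 1) (by omega)
      by_cases h5 : a = 2
      · subst h5
        rw [pr'_two, zpow_ofNat]
        have h3 : q ^ 2 + q ^ 2 = 0 := by linear_combination (q ^ 2) * h2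
        rw [h3]
        ext <;> simp
        · field_simp
          linear_combination (q ^ 2 * t.x) * h2
        · field_simp
        · have h7 : 1 + q ≠ 0 := by simpa using hq 0
          field_simp
        · linear_combination (-t.U) * h2
      · have h6 := hq' a (by omega)
        rw [pr'_ne q h5]
        ext <;> simp
        · rw [zpow_add_one₀ hq0]
          field_simp
          linear_combination (q ^ a * t.x) * h2
        · field_simp
        · field_simp
        · field_simp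

end Vale.Agent.P195.B
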