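import Vale.Agent.P195.B.Alg

/-! The double complexes over `C ⊗ C`. -/

namespace Vale.Agent.P195.B

open TensorProduct

variable {k : Type} [Field k] (q : k)

/-- the algebra `B` -/
def BB : Type := C k q ⊗[k] C k q

noncomputable instance : Ring (BB q) := inferInstanceAs (Ring (C k q ⊗[k] C k q))

noncomputable instance : Algebra k (BB q) := inferInstanceAs (Algebra k (C k q ⊗[k] C k q))

instance : FiniteDimensional k (BB q) :=
  inferInstanceAs (FiniteDimensional k (C k q ⊗[k] C k q))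

/-- pure tensors -/
noncomputable def tm (s t : C k q) : BB q := s ⊗ₜ[k] t

/-- tensor product of linear maps -/
noncomputable def mp (φ ψ : C k q →ₗ[k] C k q) : BB q →ₗ[k] BB q := map φ ψ

lemma BB_ind {motive : BB q → Prop} (z : BB q) (zero : motive 0)
    (tmul : ∀ s t, motive (tm q s t)) (add : ∀ z w, motive z → motive w → motive (z + w)) :
    motive z :=
  TensorProduct.induction_on (motive := motive) z zero tmul add

@[simp] lemma mp_tm (φ ψ : C k q →ₗ[k] C k q) (s t : C k q) :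
    mp q φ ψ (tm q s t) = tm q (φ s) (ψ t) := rfl

@[simp] lemma tm_mul_tm (s t s' t' : C k q) :
    tm q s t * tm q s' t' = tm q (s * s') (t * t') :=
  Algebra.TensorProduct.tmul_mul_tmul s s' t t'

@[simp] lemma zero_tm (t : C k q) : tm q 0 t = 0 := zero_tmul _ t

@[simp] lemma tm_zero (t : C k q) : tm q t 0 = 0 := tmul_zero _ t

lemma add_tm (s s' t : C k q) : tm q (s + s') t = tm q s t + tm q s' t := add_tmul s s' t

lemma tm_add (s t t' : C k q) : tm q s (t + t') = tm q s t + tm q s t' := tmul_add s t t'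

lemma smul_tm_smul (c d : k) (s t : C k q) : tm q (c • s) (d • t) = (c * d) • tm q s t :=
  smul_tmul_smul c d s t

@[simp] lemma mp_zero_left (ψ : C k q →ₗ[k] C k q) : mp q 0 ψ = 0 := map_zero_left ψ

@[simp] lemma mp_zero_right (ψ : C k q →ₗ[k] C k q) : mp q ψ 0 = 0 := map_zero_right ψ

lemma trace_mp (φ ψ : C k q →ₗ[k] C k q) : LinearMap.trace k (BB q) (mp q φ ψ)
    = LinearMap.trace k _ φ * LinearMap.trace k _ ψ := LinearMap.trace_tensorProduct' φ ψ

/-- product of two linear forms -/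
noncomputable def form (φ : C k q →ₗ[k] k) : BB q →ₗ[k] k := LinearMap.mul' k k ∘ₗ map φ φ

lemma form_tm (φ : C k q →ₗ[k] k) (s t : C k q) : form q φ (tm q s t) = φ s * φ t := rfl

section abstract

/-- total differential -/
noncomputable def dd (σ : ℤ) (D : ℤ → C k q →ₗ[k] C k q) (x : ℤ × ℤ → BB q) (p : ℤ × ℤ) : BB q :=
  mp q (D (p.1 + σ)) LinearMap.id (x (p.1 + σ, p.2))
    + mp q LinearMap.id (D (p.2 + σ)) (x (p.1, p.2 + σ))

/-- total contraction -/
noncomputable def ss (σ : ℤ) (H Q : ℤ → C k q →ₗ[k] C k q) (x : ℤ × ℤ → BB q) (p : ℤ × ℤ) :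
    BB q :=
  mp q (H (p.1 - σ)) LinearMap.id (x (p.1 - σ, p.2))
    + mp q (Q p.1) (H (p.2 - σ)) (x (p.1, p.2 - σ))

lemma add_self_two [CharP k 2] {W : Type} [AddCommGroup W] [Module k W] (z : W) : z + z = 0 := by
  rw [← two_smul k z, CharTwo.two_eq_zero, zero_smul]

lemma contr [CharP k 2] (σ : ℤ) (D H E Q : ℤ → C k q →ₗ[k] C k q)
    (r1 : ∀ a t, D (a + σ) (H a t) + H (a - σ) (D a t) = E a t + Q a t)
    (r2 : ∀ a t, Q a (D (a + σ) t) = 0) (r3 : ∀ a t, D a (Q a t) = 0)
    (x : ℤ × ℤ → BB q) (a b : ℤ)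
    (h1 : mp q (E a) LinearMap.id (x (a, b)) = x (a, b))
    (h2 : mp q LinearMap.id (E b) (x (a, b)) = x (a, b)) :
    dd q σ D (ss q σ H Q x) (a, b) + ss q σ H Q (dd q σ D x) (a, b)
      = x (a, b) + mp q (Q a) (Q b) (x (a, b)) := by
  have T1 : ∀ z : BB q, mp q (D (a + σ)) LinearMap.id (mp q (H a) LinearMap.id z)
      + mp q (H (a - σ)) LinearMap.id (mp q (D a) LinearMap.id z)
      = mp q (E a) LinearMap.id z + mp q (Q a) LinearMap.id z := by
    intro z
    induction z using BB_ind with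
    | zero => simp
    | tmul s t => simp only [mp_tm, LinearMap.id_apply, ← add_tm, r1]
    | add z w hz hw =>
      simp only [map_add]
      rw [add_add_add_comm, hz, hw, add_add_add_comm]
  have T2 : ∀ z : BB q, mp q LinearMap.id (D (b + σ)) (mp q (Q a) (H b) z)
      + mp q (Q a) (H (b - σ)) (mp q LinearMap.id (D b) z)
      = mp q (Q a) LinearMap.id (mp q LinearMap.id (E b) z) + mp q (Q a) (Q b) z := by
    intro z
    induction z using BB_ind with
    | zero => simp
    | tmul s t => simp only [mp_tm, LinearMap.id_apply, ← tm_add, r1]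
    | add z w hz hw =>
      simp only [map_add]
      rw [add_add_add_comm, hz, hw, add_add_add_comm]
  have T3 : ∀ z : BB q,
      mp q (D (a + σ)) LinearMap.id (mp q (Q (a + σ)) (H (b - σ)) z) = 0 := by
    intro z
    induction z using BB_ind with
    | zero => simp
    | tmul s t => simp only [mp_tm, LinearMap.id_apply, r3, zero_tm]
    | add z w hz hw => simp only [map_add, hz, hw, add_zero]
  have T4 : ∀ z : BB q,
      mp q (Q a) (H (b - σ)) (mp q (D (a + σ)) LinearMap.id z) = 0 := by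
    intro z
    induction z using BB_ind with
    | zero => simp
    | tmul s t => simp only [mp_tm, LinearMap.id_apply, r2, zero_tm]
    | add z w hz hw => simp only [map_add, hz, hw, add_zero]
  have T5 : ∀ z : BB q, mp q LinearMap.id (D (b + σ)) (mp q (H (a - σ)) LinearMap.id z)
      = mp q (H (a - σ)) LinearMap.id (mp q LinearMap.id (D (b + σ)) z) := by
    intro z
    induction z using BB_ind with
    | zero => simp
    | tmul s t => simp only [mp_tm, LinearMap.id_apply]
    | add z w hz hw => simp only [map_add, hz, hw]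
  simp only [dd, ss, map_add, add_sub_cancel_right, sub_add_cancel, T3, T4, T5]
  have e1 := T1 (x (a, b))
  have e2 := T2 (x (a, b))
  rw [h1] at e1
  rw [h2] at e2
  have e3 := add_self_two (k := k)
    (mp q (H (a - σ)) LinearMap.id (mp q LinearMap.id (D (b + σ)) (x (a - σ, b + σ))))
  have e4 := add_self_two (k := k) (mp q (Q a) LinearMap.id (x (a, b)))
  linear_combination (norm := abel1) e1 + e2 + e3 + e4

end abstract

lemma mul_tmul_eq (z : BB q) (s t : C k q) :
    z * tm q s t = mp q (LinearMap.mulRight k s) (LinearMap.mulRight k t) z := by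
  induction z using BB_ind with
  | zero => simp
  | tmul s t => simp
  | add z w hz hw => simp only [map_add, add_mul, hz, hw]

lemma tmul_mul_eq (z : BB q) (s t : C k q) :
    tm q s t * z = mp q (LinearMap.mulLeft k s) (LinearMap.mulLeft k t) z := by
  induction z using BB_ind with
  | zero => simp
  | tmul s t => simp
  | add z w hz hw => simp only [map_add, mul_add, hz, hw]

lemma map_map' (φ ψ φ' ψ' : C k q →ₗ[k] C k q) (z : BB q) :
    mp q φ ψ (mp q φ' ψ' z) = mp q (φ ∘ₗ φ') (ψ ∘ₗ ψ') z := by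
  induction z using BB_ind with
  | zero => simp
  | tmul s t => simp
  | add z w hz hw => simp only [map_add, hz, hw]

/-- the idempotents of the double complex -/
noncomputable def E (n : ℤ) (p : ℤ × ℤ) : BB q :=
  if p.1 + p.2 = n then tm q (eps q p.1) (eps q p.2) else 0

lemma E_of_eq {n : ℤ} {p : ℤ × ℤ} (h : p.1 + p.2 = n) : E q n p = tm q (eps q p.1) (eps q p.2) :=
  if_pos h

lemma E_of_ne {n : ℤ} {p : ℤ × ℤ} (h : p.1 + p.2 ≠ n) : E q n p = 0 := if_neg h

lemma E_mul_E (n : ℤ) (p : ℤ × ℤ) : E q n p * E q n p = E q n p := by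
  unfold E
  split_ifs
  · simp [eps_mul_eps]
  · simp

/-- the support -/
noncomputable def S (n : ℤ) : Finset (ℤ × ℤ) := Finset.Icc 0 n ×ˢ Finset.Icc 0 n

lemma E_of_not_mem {n : ℤ} {p : ℤ × ℤ} (h : p ∉ S n) : E q n p = 0 := by
  by_cases h1 : p.1 + p.2 = n
  · rw [E_of_eq q h1]
    simp only [S, Finset.mem_product, Finset.mem_Icc] at h
    by_cases h2 : p.1 < 0
    · rw [eps_neg q h2, zero_tm]
    · rw [eps_neg q (a := p.2) (by omega), tm_zero]
  · exact E_of_ne q h1

/-- the projective modules -/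
def Pm (n : ℤ) : Submodule (BB q) (ℤ × ℤ → BB q) where
  carrier := {x | ∀ p, x p * E q n p = x p}
  add_mem' := fun {x y} hx hy p => by rw [Pi.add_apply, add_mul, hx p, hy p]
  zero_mem' := fun p => by simp
  smul_mem' := fun c x hx p => by rw [Pi.smul_apply, smul_eq_mul, mul_assoc, hx p]

lemma mem_Pm {n : ℤ} {x : ℤ × ℤ → BB q} : x ∈ Pm q n ↔ ∀ p, x p * E q n p = x p := Iff.rfl

/-- the differential -/
noncomputable def dL : (ℤ × ℤ → BB q) →ₗ[BB q] (ℤ × ℤ → BB q) where
  toFun x p := x (p.1 + 1, p.2) * tm q (lam q (p.1 + 1)) 1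
    + x (p.1, p.2 + 1) * tm q 1 (lam q (p.2 + 1))
  map_add' x y := by funext p; simp only [Pi.add_apply, add_mul]; abel
  map_smul' c x := by
    funext p; simp only [Pi.smul_apply, smul_eq_mul, RingHom.id_apply, mul_add, mul_assoc]

lemma dL_apply (x : ℤ × ℤ → BB q) (p : ℤ × ℤ) :
    dL q x p = x (p.1 + 1, p.2) * tm q (lam q (p.1 + 1)) 1
      + x (p.1, p.2 + 1) * tm q 1 (lam q (p.2 + 1)) := rfl

lemma dL_eq_dd (x : ℤ × ℤ → BB q) :
    dL q x = dd q 1 (fun a => LinearMap.mulRight k (lam q a)) x := by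
  funext p
  simp only [dL_apply, dd, mul_tmul_eq, LinearMap.mulRight_one]

lemma dL_mem {n : ℤ} {x : ℤ × ℤ → BB q} (hx : x ∈ Pm q (n + 1)) : dL q x ∈ Pm q n := by
  rintro ⟨a, b⟩
  rw [dL_apply, ← hx (a + 1, b), ← hx (a, b + 1)]
  by_cases h : a + b = n
  · rw [E_of_eq q (p := (a, b)) h, E_of_eq q (p := (a + 1, b)) (by simp only; omega),
      E_of_eq q (p := (a, b + 1)) (by simp only; omega)]
    simp only [add_mul, mul_assoc, tm_mul_tm, lam_mul_eps,
      mul_one, eps_mul_eps]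
  · rw [E_of_ne q (p := (a + 1, b)) (by simp only; omega),
      E_of_ne q (p := (a, b + 1)) (by simp only; omega)]
    simp

lemma dL_dL [CharP k 2] (hq0 : q ≠ 0) (x : ℤ × ℤ → BB q) : dL q (dL q x) = 0 := by
  funext ⟨a, b⟩
  simp only [dL_apply, add_mul, mul_assoc, tm_mul_tm, lam_mul_lam q hq0,
    one_mul, mul_one, zero_tm, tm_zero, mul_zero, zero_add, add_zero, Pi.zero_apply]
  exact add_self_two (k := k) _

lemma dL_of_mem_zero {x : ℤ × ℤ → BB q} (hx : x ∈ Pm q 0) : dL q x = 0 := by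
  funext p
  have := dL_mem q (n := -1) (by simpa using hx) p
  rw [E_of_not_mem q (by simp [S]), mul_zero] at this
  exact this.symm

lemma Pm_left1 {n : ℤ} {x : ℤ × ℤ → BB q} (hx : x ∈ Pm q n) (a b : ℤ) :
    mp q (LinearMap.mulRight k (eps q a)) LinearMap.id (x (a, b)) = x (a, b) := by
  rw [← LinearMap.mulRight_one, ← mul_tmul_eq, ← hx (a, b)]
  unfold E
  split_ifs
  · simp [mul_assoc, eps_mul_eps]
  · simp

lemma Pm_left2 {n : ℤ} {x : ℤ × ℤ → BB q} (hx : x ∈ Pm q n) (a b : ℤ) :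
    mp q LinearMap.id (LinearMap.mulRight k (eps q b)) (x (a, b)) = x (a, b) := by
  rw [← LinearMap.mulRight_one, ← mul_tmul_eq, ← hx (a, b)]
  unfold E
  split_ifs
  · simp [mul_assoc, eps_mul_eps]
  · simp

lemma Pm_zero {n : ℤ} {x : ℤ × ℤ → BB q} (hx : x ∈ Pm q n) {p : ℤ × ℤ} (h : p.1 + p.2 ≠ n) :
    x p = 0 := by
  rw [← hx p, E_of_ne q h, mul_zero]

lemma sL_mem {n : ℤ} {x : ℤ × ℤ → BB q} (hx : x ∈ Pm q n) :
    ss q 1 (hl q) (pl q) x ∈ Pm q (n + 1) := by
  rintro ⟨a, b⟩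
  by_cases h : a + b = n + 1
  · rw [E_of_eq q (p := (a, b)) h]
    simp only [ss, add_mul, mul_tmul_eq, map_map']
    congr 1
    · conv_rhs => rw [← Pm_left2 q hx (a - 1) b, map_map']
      congr 2
      ext1 t
      have := hl_level q (a - 1) t
      rw [sub_add_cancel] at this
      exact this
    · congr 2
      · ext1 t; exact pl_level q a t
      · ext1 t
        have := hl_level q (b - 1) t
        rw [sub_add_cancel] at this
        exact this
  · simp only [ss]
    rw [Pm_zero q hx (p := (a - 1, b)) (by simp only; omega),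
      Pm_zero q hx (p := (a, b - 1)) (by simp only; omega)]
    simp

lemma left_exact [CharP k 2] (hq0 : q ≠ 0) (hq : ∀ n : ℕ, 1 + q ^ (n + 1) ≠ 0) {n : ℤ}
    {x : ℤ × ℤ → BB q} (hx : x ∈ Pm q n) (hd : dL q x = 0) :
    ∃ z ∈ Pm q (n + 1), ∀ p, dL q z p = x p + mp q (pl q p.1) (pl q p.2) (x p) := by
  refine ⟨_, sL_mem q hx, ?_⟩
  rintro ⟨a, b⟩
  have := contr q 1 (fun a => LinearMap.mulRight k (lam q a)) (hl q)
    (fun a => LinearMap.mulRight k (eps q a)) (pl q) (left_contr q hq0 hq) (pl_lam q) (lam_pl q)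
    x a b (Pm_left1 q hx a b) (Pm_left2 q hx a b)
  rw [← dL_eq_dd, ← dL_eq_dd, hd] at this
  simpa [ss] using this

/-- the dual differential -/
noncomputable def dR (y : ℤ × ℤ → BB q) (p : ℤ × ℤ) : BB q :=
  tm q (lam q p.1) 1 * y (p.1 - 1, p.2) + tm q 1 (lam q p.2) * y (p.1, p.2 - 1)

lemma dR_eq_dd (y : ℤ × ℤ → BB q) :
    dR q y = dd q (-1) (fun a => LinearMap.mulLeft k (lam q (a + 1))) y := by
  funext p
  simp only [dR, dd, tmul_mul_eq, LinearMap.mulLeft_one, neg_add_cancel_right, sub_eq_add_neg]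

/-- cochains -/
def Qm (n : ℤ) (y : ℤ × ℤ → BB q) : Prop := ∀ p, E q n p * y p = y p

lemma Qm_left1 {n : ℤ} {y : ℤ × ℤ → BB q} (hy : Qm q n y) (a b : ℤ) :
    mp q (LinearMap.mulLeft k (eps q a)) LinearMap.id (y (a, b)) = y (a, b) := by
  rw [← LinearMap.mulLeft_one, ← tmul_mul_eq, ← hy (a, b)]
  unfold E
  split_ifs
  · simp [← mul_assoc, eps_mul_eps]
  · simp

lemma Qm_left2 {n : ℤ} {y : ℤ × ℤ → BB q} (hy : Qm q n y) (a b : ℤ) :
    mp q LinearMap.id (LinearMap.mulLeft k (eps q b)) (y (a, b)) = y (a, b) := by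
  rw [← LinearMap.mulLeft_one, ← tmul_mul_eq, ← hy (a, b)]
  unfold E
  split_ifs
  · simp [← mul_assoc, eps_mul_eps]
  · simp

lemma Qm_zero {n : ℤ} {y : ℤ × ℤ → BB q} (hy : Qm q n y) {p : ℤ × ℤ} (h : p.1 + p.2 ≠ n) :
    y p = 0 := by
  rw [← hy p, E_of_ne q h, zero_mul]

lemma sR_mem {n : ℤ} {y : ℤ × ℤ → BB q} (hy : Qm q (n + 1) y) :
    Qm q n (ss q (-1) (hr q) (pr' q) y) := by
  rintro ⟨a, b⟩
  by_cases h : a + b = n
  · rw [E_of_eq q (p := (a, b)) h]
    simp only [ss, mul_add, tmul_mul_eq, map_map', sub_neg_eq_add]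
    congr 1
    · conv_rhs => rw [← Qm_left2 q hy (a + 1) b, map_map']
      congr 2
      ext1 t
      exact hr_level q a t
    · congr 2
      · ext1 t; exact pr'_level q a t
      · ext1 t; exact hr_level q b t
  · simp only [ss]
    rw [Qm_zero q hy (p := (a - -1, b)) (by simp only; omega),
      Qm_zero q hy (p := (a, b - -1)) (by simp only; omega)]
    simp

lemma dR_mem {n : ℤ} {y : ℤ × ℤ → BB q} (hy : Qm q n y) : Qm q (n + 1) (dR q y) := by
  rintro ⟨a, b⟩
  rw [dR, ← hy (a - 1, b), ← hy (a, b - 1)]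
  by_cases h : a + b = n + 1
  · rw [E_of_eq q (p := (a, b)) h, E_of_eq q (p := (a - 1, b)) (by simp only; omega),
      E_of_eq q (p := (a, b - 1)) (by simp only; omega)]
    simp only [mul_add, ← mul_assoc, tm_mul_tm, eps_mul_lam, one_mul,
      eps_mul_eps]
  · rw [E_of_ne q (p := (a - 1, b)) (by simp only; omega),
      E_of_ne q (p := (a, b - 1)) (by simp only; omega)]
    simp

lemma right_exact [CharP k 2] (hq0 : q ≠ 0) (hq : ∀ n : ℕ, 1 + q ^ (n + 1) ≠ 0) {n : ℤ}
    {y : ℤ × ℤ → BB q} (hy : Qm q (n + 1) y) (hd : dR q y = 0)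
    (h22 : mp q (pr' q 2) (pr' q 2) (y (2, 2)) = 0) :
    ∃ z, Qm q n z ∧ dR q z = y := by
  refine ⟨_, sR_mem q hy, ?_⟩
  funext ⟨a, b⟩
  have := contr q (-1) (fun a => LinearMap.mulLeft k (lam q (a + 1))) (hr q)
    (fun a => LinearMap.mulLeft k (eps q a)) (pr' q)
    (fun a t => by simpa using right_contr q hq0 hq a t)
    (fun a t => by simpa using pr'_lam q a t) (lam_pr' q)
    y a b (Qm_left1 q hy a b) (Qm_left2 q hy a b)
  rw [← dR_eq_dd, ← dR_eq_dd, hd] at this
  have h0 : mp q (pr' q a) (pr' q b) (y (a, b)) = 0 := by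
    by_cases ha : a = 2
    · by_cases hb : b = 2
      · subst ha hb; exact h22
      · rw [pr'_ne q hb]; simp
    · rw [pr'_ne q ha]; simp
  rw [h0] at this
  simpa [ss] using this

end Vale.Agent.P195.B
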