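import Vale.Agent.P195.Basic
import Vale.Agent.P195.B.Double

/-! The resolution over `C ⊗ C` as a `Pack`. -/

namespace Vale.Agent.P195.B

variable {k : Type} [Field k] (q : k)

/-- generators -/
noncomputable def gen (n : ℤ) (p : ℤ × ℤ) : Pm q n :=
  ⟨Pi.single p (E q n p), fun p' => by
    by_cases h : p' = p
    · subst h; rw [Pi.single_eq_same, E_mul_E]
    · rw [Pi.single_eq_of_ne h, zero_mul]⟩

lemma gen_val (n : ℤ) (p : ℤ × ℤ) : (gen q n p).1 = Pi.single p (E q n p) := rfl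

lemma E_smul_gen (n : ℤ) (p : ℤ × ℤ) : E q n p • gen q n p = gen q n p := by
  apply Subtype.ext
  funext p'
  rw [Submodule.coe_smul, Pi.smul_apply, gen_val, smul_eq_mul]
  by_cases h : p' = p
  · subst h; rw [Pi.single_eq_same, E_mul_E]
  · rw [Pi.single_eq_of_ne h, mul_zero]

lemma sum_gen {n : ℤ} (x : Pm q n) : ∑ p ∈ S n, x.1 p • gen q n p = x := by
  apply Subtype.ext
  funext p'
  rw [Submodule.coe_sum, Finset.sum_apply]
  simp only [Submodule.coe_smul, Pi.smul_apply, gen_val, smul_eq_mul]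
  rw [Finset.sum_eq_single p']
  · rw [Pi.single_eq_same, x.2 p']
  · intro p _ hp
    rw [Pi.single_eq_of_ne hp.symm, mul_zero]
  · intro hp
    rw [Pi.single_eq_same, x.2 p', ← x.2 p', E_of_not_mem q hp, mul_zero]

lemma hom_ext {n : ℤ} {N : Type} [AddCommGroup N] [Module (BB q) N] {F G : Pm q n →ₗ[BB q] N}
    (h : ∀ p, F (gen q n p) = G (gen q n p)) : F = G := by
  ext1 x
  rw [← sum_gen q x]
  simp only [map_sum, map_smul, h]

/-- restriction to the support -/
noncomputable def toFree (n : ℤ) : Pm q n →ₗ[BB q] (S n → BB q) where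
  toFun x p := x.1 p
  map_add' _ _ := rfl
  map_smul' _ _ := rfl

/-- the retraction from a free module -/
noncomputable def ofFree (n : ℤ) : (S n → BB q) →ₗ[BB q] Pm q n where
  toFun t := ∑ p : S n, t p • gen q n p
  map_add' s t := by simp [add_smul, Finset.sum_add_distrib]
  map_smul' c t := by simp [Finset.smul_sum, mul_smul]

lemma ofFree_toFree (n : ℤ) : ofFree q n ∘ₗ toFree q n = LinearMap.id := by
  ext1 x
  show ∑ p : S n, x.1 p • gen q n p = x
  rw [Finset.sum_coe_sort (S n) (fun p => x.1 p • gen q n p), sum_gen]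

instance (n : ℤ) : Module.Projective (BB q) (Pm q n) :=
  Module.Projective.of_split _ _ (ofFree_toFree q n)

instance (n : ℤ) : Module.Finite (BB q) (Pm q n) :=
  Module.Finite.of_surjective (ofFree q n) fun x =>
    ⟨toFree q n x, LinearMap.congr_fun (ofFree_toFree q n) x⟩

/-- the differential on the projective modules -/
noncomputable def dP (n : ℕ) : Pm q ((n + 1 : ℕ) : ℤ) →ₗ[BB q] Pm q (n : ℤ) :=
  (dL q).restrict fun _ hx => dL_mem q (by exact_mod_cast hx)

lemma dP_val (n : ℕ) (x : Pm q ((n + 1 : ℕ) : ℤ)) : (dP q n x).1 = dL q x.1 := rfl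

lemma dP_gen (n : ℕ) (a b : ℤ) : dP q n (gen q _ (a, b))
    = tm q (lam q a) 1 • gen q n (a - 1, b)
      + tm q 1 (lam q b) • gen q n (a, b - 1) := by
  apply Subtype.ext
  funext ⟨a', b'⟩
  rw [dP_val, dL_apply]
  simp only [Submodule.coe_add, Submodule.coe_smul, Pi.add_apply, Pi.smul_apply, gen_val,
    smul_eq_mul]
  have l1 := lam_mul_eps q (a - 1)
  have l2 := lam_mul_eps q (b - 1)
  rw [sub_add_cancel] at l1 l2
  congr 1
  · by_cases h : (a', b') = (a - 1, b)
    · obtain ⟨rfl, rfl⟩ := Prod.mk.inj h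
      rw [sub_add_cancel, Pi.single_eq_same, Pi.single_eq_same]
      by_cases h1 : a + b' = (n : ℤ) + 1
      · rw [E_of_eq q (by push_cast; exact h1), E_of_eq q (by simp only; omega)]
        simp [eps_mul_lam, l1]
      · rw [E_of_ne q (by push_cast; exact h1), E_of_ne q (by simp only; omega)]
        simp
    · rw [Pi.single_eq_of_ne h, Pi.single_eq_of_ne]
      · simp
      · intro h2
        apply h
        obtain ⟨rfl, rfl⟩ := Prod.mk.inj h2
        simp
  · by_cases h : (a', b') = (a, b - 1)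
    · obtain ⟨rfl, rfl⟩ := Prod.mk.inj h
      rw [sub_add_cancel, Pi.single_eq_same, Pi.single_eq_same]
      by_cases h1 : a' + b = (n : ℤ) + 1
      · rw [E_of_eq q (by push_cast; exact h1), E_of_eq q (by simp only; omega)]
        simp [eps_mul_lam, l2]
      · rw [E_of_ne q (by push_cast; exact h1), E_of_ne q (by simp only; omega)]
        simp
    · rw [Pi.single_eq_of_ne h, Pi.single_eq_of_ne]
      · simp
      · intro h2
        apply h
        obtain ⟨rfl, rfl⟩ := Prod.mk.inj h2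
        simp

/-- the cochain of a homomorphism -/
noncomputable def coch {n : ℤ} (F : Pm q n →ₗ[BB q] BB q) (p : ℤ × ℤ) : BB q := F (gen q n p)

lemma coch_mem {n : ℤ} (F : Pm q n →ₗ[BB q] BB q) : Qm q n (coch q F) := by
  intro p
  rw [coch, ← smul_eq_mul, ← map_smul, E_smul_gen]

lemma coch_comp (n : ℕ) (F : Pm q (n : ℤ) →ₗ[BB q] BB q) :
    coch q (F ∘ₗ dP q n) = dR q (coch q F) := by
  funext ⟨a, b⟩
  simp only [coch, LinearMap.comp_apply, dP_gen, map_add, map_smul, smul_eq_mul, dR]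

lemma exists_coch {n : ℤ} {z : ℤ × ℤ → BB q} (hz : Qm q n z) :
    ∃ G : Pm q n →ₗ[BB q] BB q, coch q G = z := by
  refine ⟨{ toFun := fun x => ∑ p ∈ S n, x.1 p * z p
            map_add' := fun x y => by simp [add_mul, Finset.sum_add_distrib]
            map_smul' := fun c x => by simp [Finset.mul_sum, mul_assoc] }, ?_⟩
  funext p'
  show ∑ p ∈ S n, (gen q n p').1 p * z p = z p'
  rw [gen_val, Finset.sum_eq_single p']
  · rw [Pi.single_eq_same, hz p']
  · intro p _ hp
    rw [Pi.single_eq_of_ne hp, zero_mul]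
  · intro hp
    rw [Pi.single_eq_same, hz p', ← hz p', E_of_not_mem q hp, zero_mul]

variable [CharP k 2]

lemma dP_dP (hq0 : q ≠ 0) (n : ℕ) (x : Pm q ((n + 1 + 1 : ℕ) : ℤ)) :
    dP q n (dP q (n + 1) x) = 0 :=
  Subtype.ext (dL_dL q hq0 x.1)

/-- the syzygies -/
abbrev Y (n : ℕ) : Type := Pm q (n : ℤ) ⧸ LinearMap.range (dP q n)

/-- the inclusion of syzygies -/
noncomputable def inc (hq0 : q ≠ 0) (n : ℕ) : Y q (n + 1) →ₗ[BB q] Pm q (n : ℤ) :=
  (LinearMap.range (dP q (n + 1))).liftQ (dP q n) (by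
    rintro _ ⟨x, rfl⟩
    exact dP_dP q hq0 n x)

lemma inc_mk (hq0 : q ≠ 0) (n : ℕ) (x : Pm q ((n + 1 : ℕ) : ℤ)) :
    inc q hq0 n ((LinearMap.range (dP q (n + 1))).mkQ x) = dP q n x := rfl

lemma inc_inj (hq0 : q ≠ 0) (hq : ∀ n : ℕ, 1 + q ^ (n + 1) ≠ 0) (n : ℕ) :
    Function.Injective (inc q hq0 n) := by
  rw [← LinearMap.ker_eq_bot]
  apply Submodule.ker_liftQ_eq_bot
  intro x hx
  obtain ⟨z, hz, hz'⟩ := left_exact q hq0 hq x.2 (congrArg Subtype.val hx)
  refine ⟨⟨z, by exact_mod_cast hz⟩, Subtype.ext ?_⟩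
  funext ⟨a, b⟩
  rw [dP_val, hz']
  by_cases ha : a = 0
  · by_cases hb : b = 0
    · subst ha hb
      rw [Pm_zero q x.2 (p := (0, 0)) (by push_cast; omega)]
      simp
    · rw [pl_ne q hb]; simp
  · rw [pl_ne q ha]; simp

lemma inc_exact (hq0 : q ≠ 0) (n : ℕ) :
    Function.Exact (inc q hq0 n) (LinearMap.range (dP q n)).mkQ := by
  intro x
  rw [Submodule.mkQ_apply, Submodule.Quotient.mk_eq_zero]
  constructor
  · rintro ⟨y, rfl⟩
    exact ⟨_, inc_mk q hq0 n y⟩
  · rintro ⟨y, rfl⟩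
    obtain ⟨y, rfl⟩ := Submodule.mkQ_surjective _ y
    exact ⟨y, rfl⟩

/-- the pack of part B -/
noncomputable def pack (hq0 : q ≠ 0) (hq : ∀ n : ℕ, 1 + q ^ (n + 1) ≠ 0) : Pack k where
  R := BB q
  P n := Pm q (n : ℤ)
  Y n := Y q n
  pr n := (LinearMap.range (dP q n)).mkQ
  inc n := inc q hq0 n
  pr_surj _ := Submodule.mkQ_surjective _
  inc_inj n := inc_inj q hq0 hq n
  exact n := inc_exact q hq0 n

lemma trace_BB (t : BB q) : LinearMap.trace k (BB q) (LinearMap.mulRight k t) = 0 := by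
  induction t using BB_ind with
  | zero => simp
  | tmul s t =>
    have : LinearMap.mulRight k (tm q s t)
        = mp q (LinearMap.mulRight k s) (LinearMap.mulRight k t) :=
      LinearMap.ext fun z => mul_tmul_eq q z s t
    rw [this, trace_mp, C.trace_mulRight, zero_mul]
  | add z w hz hw =>
    have : LinearMap.mulRight k (z + w) = LinearMap.mulRight k z + LinearMap.mulRight k w := by
      refine LinearMap.ext fun a => ?_
      simp [mul_add]
    rw [this, map_add, hz, hw, add_zero]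

omit [CharP k 2] in
lemma pl_pl (z : BB q) : ∃ c : k, mp q (pl q 0) (pl q 0) z = c • tm q (eps q 0) (eps q 0) := by
  induction z using BB_ind with
  | zero => exact ⟨0, by simp⟩
  | tmul s t =>
    have h : ∀ u : C k q, pl q 0 u = u.f • eps q 0 := by
      intro u; rw [pl_zero, eps_zero]; ext <;> simp
    exact ⟨s.f * t.f, by rw [mp_tm, h, h, smul_tm_smul]⟩
  | add z w hz hw =>
    obtain ⟨c, hc⟩ := hz
    obtain ⟨d, hd⟩ := hw
    exact ⟨c + d, by rw [map_add, hc, hd, add_smul]⟩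

lemma span_Y0 (hq0 : q ≠ 0) (hq : ∀ n : ℕ, 1 + q ^ (n + 1) ≠ 0) (y : Y q 0) :
    ∃ c : k, c • (LinearMap.range (dP q 0)).mkQ (gen q _ (0, 0)) = y := by
  obtain ⟨x, rfl⟩ := Submodule.mkQ_surjective _ y
  obtain ⟨z, hz, hz'⟩ := left_exact q hq0 hq x.2 (dL_of_mem_zero q x.2)
  obtain ⟨c, hc⟩ := pl_pl q (x.1 (0, 0))
  refine ⟨-c, ?_⟩
  rw [Submodule.mkQ_apply, Submodule.mkQ_apply, ← Submodule.Quotient.mk_smul, eq_comm,
    Submodule.Quotient.eq]
  refine ⟨⟨z, by exact_mod_cast hz⟩, Subtype.ext ?_⟩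
  funext ⟨a, b⟩
  have e : x - -c • gen q ((0 : ℕ) : ℤ) (0, 0) = x + c • gen q ((0 : ℕ) : ℤ) (0, 0) := by module
  rw [dP_val, hz', e]
  simp only [Submodule.coe_add, Pi.add_apply, Submodule.coe_smul_of_tower, Pi.smul_apply, gen_val]
  congr 1
  by_cases h : (a, b) = (0, 0)
  · obtain ⟨rfl, rfl⟩ := Prod.mk.inj h
    rw [Pi.single_eq_same, hc, E_of_eq q (by simp)]
  · rw [Pi.single_eq_of_ne h, smul_zero]
    by_cases ha : a = 0
    · have hb : b ≠ 0 := fun hb => h (by rw [ha, hb])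
      rw [pl_ne q hb]; simp
    · rw [pl_ne q ha]; simp

omit [CharP k 2] in
lemma gen_ne_zero : (LinearMap.range (dP q 0)).mkQ (gen q _ (0, 0)) ≠ 0 := by
  rw [Submodule.mkQ_apply, Ne, Submodule.Quotient.mk_eq_zero]
  rintro ⟨y, hy⟩
  have h1 := congrFun (congrArg Subtype.val hy) (0, 0)
  rw [dP_val, dL_apply, gen_val, Pi.single_eq_same, E_of_eq q (by simp)] at h1
  let φ : C k q →ₗ[k] k := ⟨⟨fun t => t.f, fun _ _ => rfl⟩, fun _ _ => rfl⟩
  have hφ : ∀ t, φ t = t.f := fun _ => rfl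
  let Φ : BB q →ₗ[k] k := form q φ
  have h2 : ∀ z : BB q, Φ (z * tm q (lam q 1) 1) = 0 := by
    intro z
    induction z using BB_ind with
    | zero => simp
    | tmul s t => simp [Φ, form_tm, hφ, lam_one]
    | add z w hz hw => rw [add_mul, map_add, hz, hw, add_zero]
  have h3 : ∀ z : BB q, Φ (z * tm q 1 (lam q 1)) = 0 := by
    intro z
    induction z using BB_ind with
    | zero => simp
    | tmul s t => simp [Φ, form_tm, hφ, lam_one]
    | add z w hz hw => rw [add_mul, map_add, hz, hw, add_zero]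
  have h4 := congrArg Φ h1
  simp only [zero_add, map_add, h2, h3] at h4
  simp [Φ, form_tm, hφ, eps_zero] at h4

lemma extend (hq0 : q ≠ 0) (hq : ∀ n : ℕ, 1 + q ^ (n + 1) ≠ 0) (n : ℕ)
    (F : Y q (n + 1) →ₗ[BB q] BB q)
    (h22 : mp q (pr' q 2) (pr' q 2)
      (F ((LinearMap.range (dP q (n + 1))).mkQ (gen q _ (2, 2)))) = 0) :
    ∃ g : Pm q (n : ℤ) →ₗ[BB q] BB q, g ∘ₗ inc q hq0 n = F := by
  let G := F ∘ₗ (LinearMap.range (dP q (n + 1))).mkQ
  have h1 : dR q (coch q G) = 0 := by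
    rw [← coch_comp]
    funext p
    simp only [coch, G, LinearMap.comp_apply, Pi.zero_apply]
    rw [Submodule.mkQ_apply, (Submodule.Quotient.mk_eq_zero _).2 (LinearMap.mem_range_self _ _), map_zero]
  obtain ⟨z, hz, hz'⟩ := right_exact q hq0 hq (n := n) (y := coch q G)
    (by exact_mod_cast coch_mem q G) h1 h22
  obtain ⟨g, rfl⟩ := exists_coch q hz
  refine ⟨g, ?_⟩
  have h2 : g ∘ₗ dP q n = G := by
    apply hom_ext
    intro p
    have := congrFun ((coch_comp q n g).trans hz') p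
    exact this
  refine LinearMap.ext fun y => ?_
  obtain ⟨x, rfl⟩ := Submodule.mkQ_surjective _ y
  exact LinearMap.congr_fun h2 x

theorem bdata (hq0 : q ≠ 0) (hq : ∀ n : ℕ, 1 + q ^ (n + 1) ≠ 0) : (pack q hq0 hq).BData where
  tr := trace_BB q
  rank := (finrank_eq_one_iff_of_nonzero' _ (gen_ne_zero q)).2 (span_Y0 q hq0 hq)
  hS := by
    intro n F
    refine hom_ext q (N := Y q 0) fun p => ?_
    change (show Pm q ((n + 1 : ℕ) : ℤ) →ₗ[BB q] Y q 0 from F) (gen q _ p) = 0
    set F' : Pm q ((n + 1 : ℕ) : ℤ) →ₗ[BB q] Y q 0 := F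
    rw [← E_smul_gen, map_smul]
    obtain ⟨c, hc⟩ := span_Y0 q hq0 hq (F' (gen q _ p))
    rw [← hc, smul_comm, ← map_smul, ← E_smul_gen q _ (0, 0), ← mul_smul]
    have : E q ((n + 1 : ℕ) : ℤ) p * E q ((0 : ℕ) : ℤ) (0, 0) = 0 := by
      by_cases h : p.1 + p.2 = ((n + 1 : ℕ) : ℤ)
      · rw [E_of_eq q h, E_of_eq q (by simp), tm_mul_tm]
        by_cases h1 : p.1 = 0
        · rw [eps_mul_f q (a := p.2) (by push_cast at h; omega), tm_zero]
        · rw [eps_mul_f q h1, zero_tm]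
      · rw [E_of_ne q h, zero_mul]
    rw [this, zero_smul, map_zero, smul_zero]
  v0 := by
    intro F
    change (show Y q 0 →ₗ[BB q] BB q from F) = 0
    set F' : Y q 0 →ₗ[BB q] BB q := F
    let G := F' ∘ₗ (LinearMap.range (dP q 0)).mkQ
    have h1 : dR q (coch q G) = 0 := by
      rw [← coch_comp]
      funext p
      simp only [coch, G, LinearMap.comp_apply, Pi.zero_apply]
      rw [Submodule.mkQ_apply, (Submodule.Quotient.mk_eq_zero _).2 (LinearMap.mem_range_self _ _), map_zero]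
    obtain ⟨z, hz, hz'⟩ := right_exact q hq0 hq (n := -1) (y := coch q G)
      (by simpa using coch_mem q G) h1 (by
        rw [Qm_zero q (coch_mem q G) (p := (2, 2)) (by simp), map_zero])
    have h2 : z = 0 := by
      funext p
      rw [← hz p, E_of_not_mem q (by simp [S]), zero_mul, Pi.zero_apply]
    have h3 : G = 0 := by
      apply hom_ext
      intro p
      have := congrFun hz' p
      rw [h2] at this
      simp only [dR, Pi.zero_apply, mul_zero, add_zero] at this
      exact this.symm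
    refine LinearMap.ext fun y => ?_
    obtain ⟨x, rfl⟩ := Submodule.mkQ_surjective _ y
    exact LinearMap.congr_fun h3 x
  vB := by
    intro n hn F
    change ∃ g : Pm q (n : ℤ) →ₗ[BB q] BB q, g ∘ₗ inc q hq0 n =
      (show Y q (n + 1) →ₗ[BB q] BB q from F)
    set F' : Y q (n + 1) →ₗ[BB q] BB q := F
    refine extend q hq0 hq n F' ?_
    have : gen q ((n + 1 : ℕ) : ℤ) (2, 2) = 0 := by
      rw [← E_smul_gen, E_of_ne q (by push_cast; omega), zero_smul]
    rw [this, map_zero, map_zero, map_zero]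
  vP := by
    intro j F
    change ∃ g : Pm q ((3 : ℕ) : ℤ) →ₗ[BB q] Pm q ((j + 1 : ℕ) : ℤ), g ∘ₗ inc q hq0 3 =
      (show Y q 4 →ₗ[BB q] Pm q ((j + 1 : ℕ) : ℤ) from F)
    set F' : Y q 4 →ₗ[BB q] Pm q ((j + 1 : ℕ) : ℤ) := F
    have h : ∀ p : ℤ × ℤ, ∃ g : Pm q ((3 : ℕ) : ℤ) →ₗ[BB q] BB q, g ∘ₗ inc q hq0 3
        = LinearMap.proj p ∘ₗ (Pm q ((j + 1 : ℕ) : ℤ)).subtype ∘ₗ F' := by
      intro p
      refine extend q hq0 hq 3 _ ?_
      simp only [LinearMap.comp_apply, Submodule.subtype_apply, LinearMap.proj_apply]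
      rw [← (F' _).2 p]
      by_cases h1 : p.1 + p.2 = ((j + 1 : ℕ) : ℤ)
      · rw [E_of_eq q h1, mul_tmul_eq, map_map']
        by_cases h2 : p.1 = 0
        · have : pr' q 2 ∘ₗ LinearMap.mulRight k (eps q p.2) = 0 := by
            ext1 t; exact pr'_mul_eps q (by push_cast at h1; omega) t
          rw [this]; simp
        · have : pr' q 2 ∘ₗ LinearMap.mulRight k (eps q p.1) = 0 := by
            ext1 t; exact pr'_mul_eps q h2 t
          rw [this]; simp
      · rw [E_of_ne q h1, mul_zero, map_zero]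
    choose g hg using h
    refine ⟨{ toFun := fun x => ⟨fun p => g p x * E q _ p, fun p => by rw [mul_assoc, E_mul_E]⟩
              map_add' := fun x y => Subtype.ext (by funext p; simp [add_mul])
              map_smul' := fun c x => Subtype.ext (by funext p; simp [mul_assoc]) }, ?_⟩
    refine LinearMap.ext fun y => Subtype.ext ?_
    funext p
    have := LinearMap.congr_fun (hg p) y
    simp only [LinearMap.comp_apply, Submodule.subtype_apply, LinearMap.proj_apply] at this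
    show g p (inc q hq0 3 y) * E q _ p = (F' y).1 p
    rw [this, (F' y).2 p]

end Vale.Agent.P195.B
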